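import Vale.Agent.P267.H877.Iface
import Vale.Agent.P267.H413.Per

/-!
# P267 / XA-T0 (helper359): families of bundles, local convergence
-/

set_option linter.unusedVariables false
set_option linter.unusedSectionVars false

open scoped Manifold ContDiff ComplexConjugate Matrix ComplexOrder Topology
open MeasureTheory Set Filter

noncomputable section

namespace Vale.Agent.P267.H359

open FL XT H413

/-! ### a diagonal argument -/

/-- A bad sequence for a decreasing family of sets of profiles. -/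
def BadSeq (U : ℕ → Set Prof) (δ : ℝ) : Prop :=
  ∃ (p : ℕ → Prof) (c : ℕ → ℤ) (ε : ℕ → ℝ), (∀ n, p n ∈ U n) ∧ (∀ n, 0 ≤ ε n) ∧
    Tendsto ε atTop (𝓝 0) ∧ (∀ n, (p n).a (c n) = 1) ∧
    (∀ n j, (p n).w (c n + j) * (p n).a (c n + j) ≤ eg δ j * (p n).w (c n)) ∧
    (∀ n j, (p n).w (c n + j) * (p n).b (c n + j) ≤ ε n * (eg δ j * (p n).w (c n)))

theorem badSeq_of_forall_bad {U : ℕ → Set Prof} {δ : ℝ} (h : ∀ n, Bad (U n) δ) : BadSeq U δ := by
  have : ∀ n : ℕ, ∃ (p : Prof) (c : ℤ) (ε : ℝ), p ∈ U n ∧ 0 ≤ ε ∧ ε ≤ 1 / (n + 1 : ℝ) ∧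
      p.a c = 1 ∧ (∀ j, p.w (c + j) * p.a (c + j) ≤ eg δ j * p.w c) ∧
      (∀ j, p.w (c + j) * p.b (c + j) ≤ ε * (eg δ j * p.w c)) := by
    intro n
    obtain ⟨p, c, ε, hp, hε0, hε, h1, h2, h3⟩ := h n
    have hpos : (0 : ℝ) < 1 / (n + 1 : ℝ) := by positivity
    obtain ⟨k, hk⟩ := (hε.eventually (gt_mem_nhds hpos)).exists
    exact ⟨p k, c k, ε k, hp k, hε0 k, hk.le, h1 k, h2 k, h3 k⟩
  choose p c ε hp hε0 hε h1 h2 h3 using this
  refine ⟨p, c, ε, hp, hε0, ?_, h1, h2, h3⟩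
  exact squeeze_zero hε0 hε tendsto_one_div_add_atTop_nhds_zero_nat

theorem exists_not_bad {U : ℕ → Set Prof} {δ : ℝ} (h : ¬ BadSeq U δ) : ∃ n, ¬ Bad (U n) δ := by
  by_contra hcon
  push Not at hcon
  exact h (badSeq_of_forall_bad hcon)

/-! ### bundles -/

/-- a line bundle together with a `(0,1)`-form -/
abbrev BH (M : Type) [TopologicalSpace M] [ChartedSpace C2 M] (ι : Type) [Fintype ι]
    [DecidableEq ι] := LB M ι × (M → Fin 2 → ℂ)

variable {M : Type} [TopologicalSpace M] [ChartedSpace C2 M] (D : XTData M)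
variable {ι : Type} [Fintype ι] [DecidableEq ι]

/-- local convergence of bundles with structure: the bundles are eventually equal, the structures
converge locally uniformly -/
def LocConv (p : ℕ → BH M ι) (q : BH M ι) : Prop :=
  D.TendL (fun n => (p n).1) q.1 ∧ D.Tend1 0 (fun n => (p n).2) q.2

/-- admissible weights: `w c ≤ ρ j * w (c + j)` -/
def Wt (ρ : ℤ → ℝ) (w : ℤ → ℝ) : Prop := (∀ j, 0 < w j) ∧ ∀ c j, w c ≤ ρ j * w (c + j)

/-- profiles of smooth sections of the bundles in `B`, together with admissible weights -/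
def USet (κ : ℤ) (ρ : ℤ → ℝ) (B : Set (BH M ι)) : Set Prof :=
  {p | Wt ρ p.w ∧ ∃ b ∈ B, ∃ u : M → EuclideanSpace ℂ ι, Reg0 ∞ κ u ∧ b.1.Sec u ∧
    p.a = D.p0 κ u ∧ p.b = D.p1 κ (b.1.db0 b.2 κ u)}

/-- abstract families: stable under translations, sequentially compact -/
structure BFam [IsManifold 𝓘(ℂ, C2) ω M] (B : ℕ → Set (BH M ι)) (Lim : Set (BH M ι)) : Prop where
  hol : ∀ n, ∀ b ∈ B n, b.1.IsHol b.2
  sh : ∀ n, ∀ b ∈ B n, ∀ k : ℤ, (D.shL k b.1, fun x => b.2 (D.sh k x)) ∈ B n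
  holLim : ∀ b ∈ Lim, b.1.IsHol b.2
  cpt : ∀ b : ℕ → BH M ι, (∀ n, b n ∈ B n) → ∃ φ : ℕ → ℕ, StrictMono φ ∧ ∃ q ∈ Lim,
    LocConv D (b ∘ φ) q

end Vale.Agent.P267.H359
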