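import Vale.Agent.P267.H359.Basic
import Vale.Agent.P267.H877.Norms

/-!
# P267 / XA-T0 (helper359): pointwise norms with respect to the metric of `XTData`
-/

set_option linter.unusedVariables false
set_option linter.unusedSectionVars false

open scoped Manifold ContDiff ComplexConjugate Matrix ComplexOrder Topology
open MeasureTheory Set Filter

noncomputable section

namespace Vale.Agent.P267.H359

open FL XT H413

variable {M : Type} [TopologicalSpace M] [ChartedSpace C2 M] [IsManifold 𝓘(ℂ, C2) ω M]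
  (D : XTData M)
variable {V : Type*} [NormedAddCommGroup V] [InnerProductSpace ℂ V]

theorem dh_pos (x : M) : 0 < dh D.h x := XT.dh_pos D.herm x

theorem n0_nonneg (κ : ℤ) (s : M → V) (x : M) : 0 ≤ n0 D.h κ s x := XT.n0_nonneg D.herm κ s x

theorem n1_nonneg (κ : ℤ) (a : M → Fin 2 → V) (x : M) : 0 ≤ n1 D.h κ a x :=
  XT.n1_nonneg D.herm κ a x

theorem cont_n0 {n : WithTop ℕ∞} {κ : ℤ} {s : M → V} (h : Reg0 n κ s) :
    Continuous (n0 D.h κ s) := XT.continuous_n0 D.herm h

theorem n0_add_le (κ : ℤ) (s t : M → V) (x : M) :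
    n0 D.h κ (fun y => s y + t y) x ≤ n0 D.h κ s x + n0 D.h κ t x := XT.n0_add_le D.herm κ s t x

theorem n1_add_le (κ : ℤ) (s t : M → Fin 2 → V) (x : M) :
    n1 D.h κ (fun y => s y + t y) x ≤ n1 D.h κ s x + n1 D.h κ t x := XT.n1_add_le D.herm κ s t x

theorem n0_smul (κ : ℤ) (c : ℂ) (s : M → V) (x : M) :
    n0 D.h κ (fun y => c • s y) x = ‖c‖ * n0 D.h κ s x := XT.n0_smul κ (fun _ => c) s x

theorem n1_smul (κ : ℤ) (c : ℂ) (s : M → Fin 2 → V) (x : M) :
    n1 D.h κ (fun y => c • s y) x = ‖c‖ * n1 D.h κ s x := XT.n1_smul κ (fun _ => c) s x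

end Vale.Agent.P267.H359
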