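import Vale.Agent.P267.H359.T0

/-!
# P267 / XA-T0 (helper359): the family of translates of a periodised bundle
-/

set_option linter.unusedVariables false
set_option linter.unusedSectionVars false

open scoped Manifold ContDiff ComplexConjugate Matrix ComplexOrder Topology
open MeasureTheory Set Filter

noncomputable section

namespace Vale.Agent.P267.H359

open FL XT H413

/-! ### sequences of integers -/

theorem int_seq_cases (k : ℕ → ℤ) : (∃ c, ∃ᶠ n in atTop, k n = c) ∨
    ∀ R : ℝ, ∀ᶠ n in atTop, R < |(k n : ℝ)| := by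
  by_cases h : ∃ c, ∃ᶠ n in atTop, k n = c
  · exact Or.inl h
  right
  push Not at h
  intro R
  have h2 : ∀ᶠ n in atTop, ∀ c ∈ Finset.Icc ⌊-R⌋ ⌈R⌉, k n ≠ c :=
    (Filter.eventually_all_finset _).2 fun c _ => h c
  filter_upwards [h2] with n hn
  by_contra hcon
  push Not at hcon
  rw [abs_le] at hcon
  refine hn (k n) (Finset.mem_Icc.2 ⟨?_, ?_⟩) rfl
  · have : (⌊-R⌋ : ℝ) ≤ k n := (Int.floor_le _).trans hcon.1
    exact_mod_cast this
  · have : (k n : ℝ) ≤ ⌈R⌉ := hcon.2.trans (Int.le_ceil _)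
    exact_mod_cast this

section

variable {M : Type} [TopologicalSpace M] [ChartedSpace C2 M] [IsManifold 𝓘(ℂ, C2) ω M]
  (D : XTData M)
variable {V : Type*} [NormedAddCommGroup V] [InnerProductSpace ℂ V]
variable {ι : Type} [Fintype ι] [DecidableEq ι]

theorem lb_ext {L L' : LB M ι} (h : L.P = L'.P) : L = L' := by
  cases L; cases L'; congr

theorem win_sh_mul {m : ℤ} (hm : m ≠ 0) (t : ℤ) (x : M) :
    D.win m (D.sh (m * t) x) = D.win m x + t := by
  have : (m : ℝ) ≠ 0 := by exact_mod_cast hm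
  rw [XTData.win, D.f_sh, XTData.win]
  have e : (D.f x + ((m * t : ℤ) : ℝ)) / m = D.f x / m + t := by
    push_cast; field_simp
  rw [e, round_add_intCast]

theorem mv_sh_mul {m : ℤ} (hm : m ≠ 0) (t : ℤ) (x : M) :
    D.mv m (D.sh (m * t) x) = D.mv m x := by
  rw [XTData.mv, win_sh_mul D hm, ← D.sh_add, XTData.mv]
  congr 1
  ring

theorem isHol_triv (i₀ : ι) : (LB.triv i₀ : LB M ι).IsHol (fun _ => 0) where
  smooth := reg1_zero
  integrable x := by
    have h : ∀ i, (fun z => loc1 0 (chartAt C2 x) (fun _ : M => (0 : Fin 2 → ℂ)) z i)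
        = fun _ => 0 := by
      intro i
      funext z
      simp [loc1]
    have h1 : ∀ i j : ι, dbar0 0 (fun y : M => (LB.triv i₀ : LB M ι).P y i j) x = 0 := by
      intro i j
      funext p
      have : loc0 0 (chartAt C2 x) (fun y : M => (LB.triv i₀ : LB M ι).P y i j) =
          fun _ => (Matrix.single i₀ i₀ (1 : ℂ)) i j := by
        funext z
        simp [loc0, LB.triv]
      rw [dbar0, this, dzb_const]
      rfl
    simp only [dbar1, h, dzb_const, LB.F02, h1, Pi.zero_apply]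
    have h2 : (Matrix.of fun (_ _ : ι) => (0 : ℂ)) = 0 := rfl
    simp [h2]

/-- translates of `(L_m, a_m)`, `m ≥ m₁`, and of `(L, a)` -/
def PB (L : LB M ι) (a : M → Fin 2 → ℂ) (m₀ : ℕ) (Lm : ℕ → LB M ι) (am : ℕ → M → Fin 2 → ℂ)
    (m₁ : ℕ) : Set (BH M ι) :=
  {b | ∃ k : ℤ, b = (D.shL k L, fun x => a (D.sh k x)) ∨
    ∃ m : ℕ, m₀ ≤ m ∧ m₁ ≤ m ∧ b = (D.shL k (Lm m), fun x => am m (D.sh k x))}

/-- translates of `(L, a)` and the trivial bundle -/
def PLim (L : LB M ι) (a : M → Fin 2 → ℂ) (i₀ : ι) : Set (BH M ι) :=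
  {b | (∃ k : ℤ, b = (D.shL k L, fun x => a (D.sh k x))) ∨ b = (LB.triv i₀, fun _ => 0)}

variable {L : LB M ι} {i₀ : ι} {a : M → Fin 2 → ℂ} {R N : ℝ} {m₀ : ℕ}
  {Lm : ℕ → LB M ι} {am : ℕ → M → Fin 2 → ℂ}

theorem locConv_const (q : BH M ι) : LocConv D (fun _ => q) q := by
  refine ⟨fun j => Eventually.of_forall fun n x _ => rfl, fun j => ?_⟩
  have : D.p1 0 (fun x => q.2 x - q.2 x) j = 0 := by
    refine le_antisymm (D.prof_le le_rfl fun x hx => ?_) (D.prof_nonneg (n1_nonneg D 0 _) j)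
    have : n1 D.h 0 (fun x => q.2 x - q.2 x) x = 0 := by
      simp [n1, nsq1]
    exact this.le
  simp only [this]
  exact tendsto_const_nhds

theorem tend1_of_bound {p : ℕ → M → Fin 2 → V} {q : M → Fin 2 → V}
    (h : ∀ j : ℤ, ∀ ε : ℝ, 0 < ε → ∀ᶠ n in atTop, ∀ x ∈ D.slab j,
      n1 D.h 0 (fun y => p n y - q y) x ≤ ε) : D.Tend1 0 p q := by
  intro j
  rw [Metric.tendsto_nhds]
  intro ε hε
  filter_upwards [h j (ε / 2) (half_pos hε)] with n hn
  rw [Real.dist_0_eq_abs, XTData.p1, abs_of_nonneg (D.prof_nonneg (n1_nonneg D 0 _) j)]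
  exact (D.prof_le (half_pos hε).le hn).trans_lt (half_lt_self hε)

theorem slab_abs_le {j : ℤ} {x : M} (hx : x ∈ D.slab j) : |D.f x| ≤ |(j : ℝ)| + 1 := by
  obtain ⟨h1, h2⟩ := hx
  rw [abs_le]
  constructor
  · linarith [neg_abs_le (j : ℝ)]
  · linarith [le_abs_self (j : ℝ)]

/-- convergence to zero of an exponential bound -/
theorem exp_small {N : ℝ} (hN : 0 < N) (C : ℝ) {ε : ℝ} (hε : 0 < ε) :
    ∃ T : ℝ, ∀ t, T ≤ t → C * Real.exp (-(N * t)) ≤ ε := by
  have h : Tendsto (fun t : ℝ => C * Real.exp (-(N * t))) atTop (𝓝 0) := by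
    have h1 : Tendsto (fun t : ℝ => N * t) atTop atTop := tendsto_id.const_mul_atTop hN
    have := (Real.tendsto_exp_neg_atTop_nhds_zero.comp h1).const_mul C
    simpa using this
  obtain ⟨T, hT⟩ := eventually_atTop.1 (h.eventually (gt_mem_nhds hε))
  exact ⟨T, fun t ht => (hT t ht).le⟩

theorem cpt_one (hN : 0 < N) (hE : D.EndTriv L i₀ a R N) (k : ℕ → ℤ) :
    ∃ φ : ℕ → ℕ, StrictMono φ ∧ ∃ q ∈ PLim D L a i₀,
      LocConv D (fun n => (D.shL (k (φ n)) L, fun x => a (D.sh (k (φ n)) x))) q := by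
  rcases int_seq_cases k with ⟨c, hc⟩ | hinf
  · obtain ⟨φ, hφ, hφc⟩ := extraction_of_frequently_atTop hc
    refine ⟨φ, hφ, (D.shL c L, fun x => a (D.sh c x)), Or.inl ⟨c, rfl⟩, ?_⟩
    simp only [hφc]
    exact locConv_const D _
  · refine ⟨id, strictMono_id, (LB.triv i₀, fun _ => 0), Or.inr rfl, ?_, ?_⟩
    · intro j
      filter_upwards [hinf (R + |(j : ℝ)| + 1)] with n hn x hx
      have h1 := slab_abs_le D hx
      refine hE.ends _ ?_
      rw [D.f_sh]
      have h2 : |((k n : ℤ) : ℝ)| ≤ |D.f x + (k n : ℝ)| + |D.f x| := by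
        have := abs_sub (D.f x + (k n : ℝ)) (D.f x)
        simpa using this
      simp only [id]
      linarith
    · obtain ⟨C, hC⟩ := hE.decay
      refine tend1_of_bound D fun j ε hε => ?_
      obtain ⟨T, hT⟩ := exp_small hN C hε
      filter_upwards [hinf (T + |(j : ℝ)| + 1)] with n hn x hx
      have h1 := slab_abs_le D hx
      have h2 : |((k n : ℤ) : ℝ)| ≤ |D.f x + (k n : ℝ)| + |D.f x| := by
        have := abs_sub (D.f x + (k n : ℝ)) (D.f x)
        simpa using this
      simp only [id, sub_zero]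
      rw [D.n1_comp_sh 0 (k n) a x]
      refine (hC _).trans (hT _ ?_)
      rw [D.f_sh]
      linarith

theorem periodic_a (hP : D.PerSeq L i₀ a N m₀ Lm am) {m : ℕ} (hm : m₀ ≤ m) (t : ℤ) (x : M) :
    am m (D.sh (m * t) x) = am m x := by
  revert t
  apply XTData.sh_induction
  · simp
  · intro t ht
    rw [mul_add, mul_one, D.sh_add] at *
    have h1 := hP.pera m hm x
    have : D.sh (m * t) (D.sh m x) = D.sh m (D.sh (m * t) x) := by
      rw [← D.sh_add, ← D.sh_add, add_comm]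
    rw [this, hP.pera m hm, ht]
  · intro t ht
    have h1 := hP.pera m hm (D.sh (m * (t - 1)) x)
    rw [← D.sh_add] at h1
    rw [← h1, ← ht]
    congr 2
    ring

theorem periodic_P (hP : D.PerSeq L i₀ a N m₀ Lm am) {m : ℕ} (hm : m₀ ≤ m) (t : ℤ) (x : M) :
    (Lm m).P (D.sh (m * t) x) = (Lm m).P x := by
  have hm2 : ((m : ℕ) : ℤ) ≠ 0 := by
    have := hP.two_le
    omega
  rw [hP.perP m hm, hP.perP m hm, mv_sh_mul D hm2]

/-- reduction of the translation to the window -/
theorem reduce_window (hP : D.PerSeq L i₀ a N m₀ Lm am) {m : ℕ} (hm : m₀ ≤ m) (k : ℤ) :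
    ∃ k' : ℤ, |(k' : ℝ)| ≤ m / 2 ∧
      ((D.shL k (Lm m), fun x => am m (D.sh k x)) : BH M ι) =
        (D.shL k' (Lm m), fun x => am m (D.sh k' x)) := by
  have hm0 : 0 < m := lt_of_lt_of_le (by have := hP.two_le; omega) hm
  have hm' : (0 : ℝ) < m := by exact_mod_cast hm0
  set t : ℤ := round ((k : ℝ) / m) with ht
  have hk : k = m * t + (k - m * t) := by ring
  refine ⟨k - m * t, ?_, ?_⟩
  · have := abs_sub_round ((k : ℝ) / m)
    have e : (((k - m * t : ℤ)) : ℝ) = m * ((k : ℝ) / m - round ((k : ℝ) / m)) := by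
      push_cast
      rw [mul_sub, mul_div_cancel₀ _ hm'.ne']
    rw [e, abs_mul, abs_of_pos hm']
    nlinarith
  · have e : ∀ x, D.sh k x = D.sh (m * t) (D.sh (k - m * t) x) := by
      intro x
      rw [← D.sh_add, ← hk]
    refine Prod.ext (lb_ext ?_) ?_
    · funext x
      simp only [XTData.shL_P]
      rw [e x, periodic_P D hP hm]
    · funext x
      simp only
      rw [e x, periodic_a D hP hm]

theorem cpt_two (hN : 0 < N) (hE : D.EndTriv L i₀ a R N) (hP : D.PerSeq L i₀ a N m₀ Lm am)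
    (k : ℕ → ℤ) (m : ℕ → ℕ) (hm : ∀ n, m₀ ≤ m n) (hmn : ∀ n, n ≤ m n) :
    ∃ φ : ℕ → ℕ, StrictMono φ ∧ ∃ q ∈ PLim D L a i₀,
      LocConv D (fun n => (D.shL (k (φ n)) (Lm (m (φ n))),
        fun x => am (m (φ n)) (D.sh (k (φ n)) x))) q := by
  have hm0 : ∀ n, 0 < m n := fun n => lt_of_lt_of_le (by have := hP.two_le; omega) (hm n)
  choose k' hk' hkk using fun n => reduce_window D hP (hm n) (k n)
  simp only [hkk]
  obtain ⟨C, hC⟩ := hP.close
  have hminf : ∀ T : ℝ, ∀ᶠ n in atTop, T ≤ (m n : ℝ) / 2 := by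
    intro T
    filter_upwards [eventually_ge_atTop (⌈2 * T⌉₊)] with n hn
    have h1 : 2 * T ≤ (⌈2 * T⌉₊ : ℝ) := Nat.le_ceil _
    have h2 : ((⌈2 * T⌉₊ : ℕ) : ℝ) ≤ n := by exact_mod_cast hn
    have h3 : (n : ℝ) ≤ m n := by exact_mod_cast hmn n
    linarith
  rcases int_seq_cases k' with ⟨c, hc⟩ | hinf
  · obtain ⟨φ, hφ, hφc⟩ := extraction_of_frequently_atTop hc
    refine ⟨φ, hφ, (D.shL c L, fun x => a (D.sh c x)), Or.inl ⟨c, rfl⟩, ?_⟩
    simp only [hφc]
    have hmφ : ∀ T : ℝ, ∀ᶠ n in atTop, T ≤ (m (φ n) : ℝ) / 2 := fun T =>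
      hφ.tendsto_atTop.eventually (hminf T)
    refine ⟨fun j => ?_, tend1_of_bound D fun j ε hε => ?_⟩
    · filter_upwards [hmφ (|(j : ℝ)| + 1 + |(c : ℝ)| + 1)] with n hn x hx
      have h1 := slab_abs_le D hx
      simp only [XTData.shL_P]
      rw [hP.perP _ (hm _)]
      congr 1
      apply D.mv_eq_self (by exact_mod_cast hm0 _)
      rw [D.f_sh]
      have := abs_add_le (D.f x) (c : ℝ)
      push_cast
      linarith
    · obtain ⟨T, hT⟩ := exp_small hN C hε
      filter_upwards [hmφ (|(j : ℝ)| + 1 + |(c : ℝ)| + 1), hmφ T] with n hn hn2 x hx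
      have h1 := slab_abs_le D hx
      have h2 := D.n1_comp_sh 0 c (fun y => am (m (φ n)) y - a y) x
      rw [h2]
      refine (hC _ (hm _) _ ?_).trans ?_
      · rw [D.f_sh]
        have := abs_add_le (D.f x) (c : ℝ)
        linarith
      · have := hT _ hn2
        rw [mul_div_assoc]
        exact this
  · refine ⟨id, strictMono_id, (LB.triv i₀, fun _ => 0), Or.inr rfl, ?_⟩
    simp only [id]
    -- the position of the moved point
    have hpos : ∀ n x, |(k' n : ℝ)| - |D.f x| ≤ |D.f (D.mv (m n) (D.sh (k' n) x))| := by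
      intro n x
      have hm' : (0 : ℝ) < m n := by exact_mod_cast hm0 n
      rw [XTData.mv, D.f_sh, D.f_sh]
      set t := D.win (m n) (D.sh (k' n) x)
      push_cast
      have h1 : |(k' n : ℝ)| ≤ |(k' n : ℝ) - m n * t| := by
        rcases eq_or_ne t 0 with h0 | h0
        · rw [h0]; simp
        · have h2 : (1 : ℝ) ≤ |(t : ℝ)| := by
            have := Int.one_le_abs h0
            exact_mod_cast this
          have h3 : (m n : ℝ) * |(t : ℝ)| ≤ |(k' n : ℝ) - m n * t| + |(k' n : ℝ)| := by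
            have := abs_sub ((k' n : ℝ) - m n * t) (k' n : ℝ)
            have e : (k' n : ℝ) - m n * t - k' n = -(m n * t) := by ring
            rw [e, abs_neg, abs_mul, abs_of_pos hm'] at this
            exact this
          nlinarith [hk' n]
      have h4 : |(k' n : ℝ) - m n * t| ≤ |D.f x + (k' n : ℝ) + -(m n * t)| + |D.f x| := by
        have := abs_sub (D.f x + (k' n : ℝ) + -(m n * t)) (D.f x)
        have e : D.f x + (k' n : ℝ) + -(m n * t) - D.f x = (k' n : ℝ) - m n * t := by ring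
        rw [e] at this
        exact this
      linarith
    refine ⟨fun j => ?_, tend1_of_bound D fun j ε hε => ?_⟩
    · filter_upwards [hinf (R + |(j : ℝ)| + 1)] with n hn x hx
      have h1 := slab_abs_le D hx
      simp only [XTData.shL_P]
      rw [hP.perP _ (hm _)]
      refine hE.ends _ ?_
      linarith [hpos n x]
    · obtain ⟨C', hC'⟩ := hE.decay
      obtain ⟨T, hT⟩ := exp_small hN C (half_pos hε)
      obtain ⟨T', hT'⟩ := exp_small hN C' (half_pos hε)
      filter_upwards [hminf T, hinf (T' + |(j : ℝ)| + 1)] with n hn hn2 x hx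
      have h1 := slab_abs_le D hx
      simp only [sub_zero]
      rw [D.n1_comp_sh 0 (k' n) (am (m n)) x]
      set y := D.mv (m n) (D.sh (k' n) x) with hy
      have hfy : |D.f y| ≤ (m n : ℝ) / 2 := by
        have := D.abs_f_mv (m := (m n : ℤ)) (by exact_mod_cast hm0 n) (D.sh (k' n) x)
        rwa [Int.cast_natCast] at this
      have e1 : n1 D.h 0 (am (m n)) (D.sh (k' n) x) = n1 D.h 0 (am (m n)) y := by
        have e2 : am (m n) y = am (m n) (D.sh (k' n) x) := by
          rw [hy, XTData.mv]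
          have := periodic_a D hP (hm n) (-(D.win (m n) (D.sh (k' n) x))) (D.sh (k' n) x)
          rw [mul_neg] at this
          exact this
        have e3 : D.h y = D.h (D.sh (k' n) x) := by
          rw [hy, XTData.mv, D.h_sh]
        simp only [n1, nsq1, dh, e2, e3]
      rw [e1]
      have e4 : n1 D.h 0 (am (m n)) y ≤ n1 D.h 0 (fun z => am (m n) z - a z) y +
          n1 D.h 0 a y := by
        have := n1_add_le D 0 (fun z => am (m n) z - a z) a y
        simpa using this
      refine e4.trans ?_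
      have e5 : n1 D.h 0 (fun z => am (m n) z - a z) y ≤ ε / 2 := by
        refine (hC _ (hm n) y hfy).trans ?_
        have := hT _ hn
        rw [mul_div_assoc]
        exact this
      have e6 : n1 D.h 0 a y ≤ ε / 2 := (hC' y).trans (hT' _ (by linarith [hpos n x]))
      linarith

/-- the family of translates of a periodised bundle is sequentially compact -/
theorem bFam (hN : 0 < N) (hE : D.EndTriv L i₀ a R N) (hP : D.PerSeq L i₀ a N m₀ Lm am) :
    BFam D (PB D L a m₀ Lm am) (PLim D L a i₀) where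
  hol := by
    rintro n b ⟨k, rfl | ⟨m, hm0, hm1, rfl⟩⟩
    · exact (D.chartMap_sh k).lb_isHol hE.hol
    · exact (D.chartMap_sh k).lb_isHol (hP.hol m hm0)
  sh := by
    rintro n b ⟨k, rfl | ⟨m, hm0, hm1, rfl⟩⟩ k'
    · refine ⟨k + k', Or.inl (Prod.ext (lb_ext ?_) ?_)⟩
      · funext x
        simp only [XTData.shL_P, D.sh_add]
      · funext x
        simp only [D.sh_add]
    · refine ⟨k + k', Or.inr ⟨m, hm0, hm1, (Prod.ext (lb_ext ?_) ?_)⟩⟩
      · funext x
        simp only [XTData.shL_P, D.sh_add]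
      · funext x
        simp only [D.sh_add]
  holLim := by
    rintro q (⟨k, rfl⟩ | rfl)
    · exact (D.chartMap_sh k).lb_isHol hE.hol
    · exact isHol_triv i₀
  cpt := by
    intro b hb
    choose k hk using hb
    by_cases hfr : ∃ᶠ n in atTop, b n = (D.shL (k n) L, fun x => a (D.sh (k n) x))
    · obtain ⟨φ, hφ, hφb⟩ := extraction_of_frequently_atTop hfr
      obtain ⟨ψ, hψ, q, hq, hconv⟩ := cpt_one D hN hE (fun n => k (φ n))
      refine ⟨φ ∘ ψ, hφ.comp hψ, q, hq, ?_⟩
      have : b ∘ (φ ∘ ψ) = fun n => (D.shL (k (φ (ψ n))) L, fun x => a (D.sh (k (φ (ψ n))) x)) := by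
        funext n
        exact hφb (ψ n)
      rw [this]
      exact hconv
    · have hev : ∃ᶠ n in atTop, ∃ m : ℕ, m₀ ≤ m ∧ n ≤ m ∧
          b n = (D.shL (k n) (Lm m), fun x => am m (D.sh (k n) x)) := by
        rw [not_frequently] at hfr
        refine (hfr.mono fun n hn => ?_).frequently
        rcases hk n with h | h
        · exact absurd h hn
        · exact h
      obtain ⟨φ, hφ, hφb⟩ := extraction_of_frequently_atTop hev
      choose m hm0 hm1 hbm using hφb
      obtain ⟨ψ, hψ, q, hq, hconv⟩ := cpt_two D hN hE hP (fun n => k (φ n)) m hm0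
        (fun n => (hφ.id_le n).trans (hm1 n))
      refine ⟨φ ∘ ψ, hφ.comp hψ, q, hq, ?_⟩
      have : b ∘ (φ ∘ ψ) = fun n => (D.shL (k (φ (ψ n))) (Lm (m (ψ n))),
          fun x => am (m (ψ n)) (D.sh (k (φ (ψ n))) x)) := by
        funext n
        exact hbm (ψ n)
      rw [this]
      exact hconv

end

end Vale.Agent.P267.H359
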