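import Vale.Agent.P267.H359.NormD

/-!
# P267 / XA-T0 (helper359): the abstract uniform degree 0 estimate
-/

set_option linter.unusedVariables false
set_option linter.unusedSectionVars false

open scoped Manifold ContDiff ComplexConjugate Matrix ComplexOrder Topology
open MeasureTheory Set Filter

noncomputable section

namespace Vale.Agent.P267.H359

open FL XT H413

variable {M : Type} [TopologicalSpace M] [ChartedSpace C2 M] [IsManifold 𝓘(ℂ, C2) ω M]
  (D : XTData M)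
variable {V : Type*} [NormedAddCommGroup V] [InnerProductSpace ℂ V]
variable {ι : Type} [Fintype ι] [DecidableEq ι]

theorem n1_congr {h : M → Matrix (Fin 2) (Fin 2) ℂ} {κ : ℤ} {F G : M → Fin 2 → V} {x : M}
    (e : F x = G x) : n1 h κ F x = n1 h κ G x := by
  simp only [n1, nsq1, e]

theorem n0_congr {h : M → Matrix (Fin 2) (Fin 2) ℂ} {κ : ℤ} {F G : M → V} {x : M}
    (e : F x = G x) : n0 h κ F x = n0 h κ G x := by
  simp only [n0, e]

theorem n0_sub_le (κ : ℤ) (s t : M → V) (x : M) :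
    n0 D.h κ s x ≤ n0 D.h κ t x + n0 D.h κ (fun y => t y - s y) x := by
  have := n0_add_le D κ t (fun y => s y - t y) x
  have e : n0 D.h κ (fun y => s y - t y) x = n0 D.h κ (fun y => t y - s y) x := by
    simp only [n0, norm_sub_rev]
  rw [e] at this
  simpa using this

theorem act_smul (P : Matrix ι ι ℂ) (c : ℂ) (v : EuclideanSpace ℂ ι) :
    LB.act P (c • v) = c • LB.act P v := by
  simp only [LB.act, WithLp.ofLp_smul, Matrix.mulVec_smul, WithLp.toLp_smul]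

theorem act_add (P : Matrix ι ι ℂ) (v w : EuclideanSpace ℂ ι) :
    LB.act P (v + w) = LB.act P v + LB.act P w := by
  simp only [LB.act, WithLp.ofLp_add, Matrix.mulVec_add, WithLp.toLp_add]

theorem act_zero (P : Matrix ι ι ℂ) : LB.act P (0 : EuclideanSpace ℂ ι) = 0 := by
  simp only [LB.act, WithLp.ofLp_zero, Matrix.mulVec_zero, WithLp.toLp_zero]

theorem reg0_const_smul {W : Type*} [NormedAddCommGroup W] [NormedSpace ℂ W] {n : WithTop ℕ∞}
    {κ : ℤ} {s : M → W} (hs : Reg0 n κ s) (c : ℂ) : Reg0 n κ fun x => c • s x := by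
  intro e he
  have : loc0 κ e (fun x => c • s x) = fun z => c • loc0 κ e s z := by
    funext z
    simp only [loc0]
    rw [smul_comm]
  rw [this]
  exact (hs e he).const_smul c

theorem reg0_sub' {W : Type*} [NormedAddCommGroup W] [NormedSpace ℂ W] {n : WithTop ℕ∞}
    {κ : ℤ} {s t : M → W} (hs : Reg0 n κ s) (ht : Reg0 n κ t) : Reg0 n κ fun x => s x - t x := by
  intro e he
  have : loc0 κ e (fun x => s x - t x) = fun z => loc0 κ e s z - loc0 κ e t z := by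
    funext z
    simp only [loc0, smul_sub]
  rw [this]
  exact (hs e he).sub (ht e he)

theorem reg1_zero {W : Type*} [NormedAddCommGroup W] [NormedSpace ℂ W] {n : WithTop ℕ∞}
    {κ : ℤ} : Reg1 n κ (fun _ : M => (0 : Fin 2 → W)) := by
  intro e he
  have : loc1 κ e (fun _ : M => (0 : Fin 2 → W)) = fun _ => 0 := by
    funext z i
    simp [loc1]
  rw [this]
  exact contDiffOn_const

theorem dbar0_const_smul {W : Type*} [NormedAddCommGroup W] [NormedSpace ℂ W] {κ : ℤ}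
    {s : M → W} (hs : Reg0 ∞ κ s) (c : ℂ) (x : M) :
    dbar0 κ (fun x => c • s x) x = c • dbar0 κ s x := by
  funext i
  have : loc0 κ (chartAt C2 x) (fun x => c • s x) = fun z => c • loc0 κ (chartAt C2 x) s z := by
    funext z
    simp only [loc0]
    rw [smul_comm]
  rw [dbar0, this, Pi.smul_apply, dbar0]
  refine dzb_const_smul c ?_ i
  exact ((hs.contDiffAt (chart_mem_atlas C2 x) (mem_chart_target C2 x)).of_le
    (by simp)).differentiableAt one_ne_zero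

theorem db0_const_smul {κ : ℤ} {L : LB M ι} {a : M → Fin 2 → ℂ} {s : M → EuclideanSpace ℂ ι}
    (hs : Reg0 ∞ κ s) (c : ℂ) (x : M) :
    L.db0 a κ (fun x => c • s x) x = c • L.db0 a κ s x := by
  funext i
  simp only [LB.db0, dbar0_const_smul hs, Pi.smul_apply, act_smul, smul_add]
  rw [smul_comm (a x i)]

theorem db1_zero (κ : ℤ) (L : LB M ι) (a : M → Fin 2 → ℂ) (x : M) :
    L.db1 a κ (fun _ => 0) x = 0 := by
  have h : ∀ i, (fun z => loc1 κ (chartAt C2 x) (fun _ : M => (0 : Fin 2 → EuclideanSpace ℂ ι)) z i)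
      = fun _ => 0 := by
    intro i
    funext z
    simp [loc1]
  simp only [LB.db1, dbar1, h, dzb_const, sub_zero, act_zero, Pi.zero_apply, smul_zero, add_zero]

theorem p0_bound_of_lim {κ : ℤ} {w : M → V} {v : ℕ → M → V} {n : WithTop ℕ∞}
    (hw : Reg0 n κ w) (hv : ∀ m, Reg0 n κ (v m)) (hc : D.Tend0 κ v w) {j : ℤ} {B : ℝ}
    (hB : ∀ m, D.p0 κ (v m) j ≤ B) : D.p0 κ w j ≤ B := by
  have h1 : ∀ m, D.p0 κ w j ≤ B + D.p0 κ (fun x => v m x - w x) j := by
    intro m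
    have hB0 : 0 ≤ B := (D.prof_nonneg (n0_nonneg D κ (v m)) j).trans (hB m)
    refine D.prof_le (add_nonneg hB0 (D.prof_nonneg (n0_nonneg D κ _) j)) fun x hx => ?_
    refine (n0_sub_le D κ w (v m) x).trans (add_le_add ?_ ?_)
    · exact (D.le_prof (cont_n0 D (hv m)) hx).trans (hB m)
    · exact D.le_prof (cont_n0 D (reg0_sub' (hv m) hw)) hx
  have h2 := (hc j).const_add B
  rw [add_zero] at h2
  exact ge_of_tendsto' h2 h1

theorem not_badSeq {κ : ℤ} {ρ : ℤ → ℝ} {δ : ℝ} {B : ℕ → Set (BH M ι)} {Lim : Set (BH M ι)}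
    (hB : BFam D B Lim) (hNF : D.NF)
    (hV : ∀ q ∈ Lim, D.Van κ q.1 q.2 (fun j => eg δ j * ρ j)) :
    ¬ BadSeq (fun n => USet D κ ρ (B n)) δ := by
  rintro ⟨p, c, ε, hp, hε0, hε, h1, h2, h3⟩
  have hex : ∀ n, ∃ b ∈ B n, ∃ u : M → EuclideanSpace ℂ ι, Reg0 ∞ κ u ∧ b.1.Sec u ∧
      (p n).a = D.p0 κ u ∧ (p n).b = D.p1 κ (b.1.db0 b.2 κ u) := fun n => (hp n).2
  choose b hb u hu hsec ha hbb using hex
  have hw : ∀ n, Wt ρ (p n).w := fun n => (hp n).1
  -- recentred objects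
  set b' : ℕ → BH M ι := fun n => (D.shL (c n) (b n).1, fun x => (b n).2 (D.sh (c n) x)) with hb'd
  have hb' : ∀ n, b' n ∈ B n := fun n => hB.sh n _ (hb n) (c n)
  set v : ℕ → M → EuclideanSpace ℂ ι := fun n x => u n (D.sh (c n) x) with hvd
  have hvreg : ∀ n, Reg0 ∞ κ (v n) := fun n => (D.chartMap_sh (c n)).reg0_comp (hu n)
  have hvsec : ∀ n, (b' n).1.Sec (v n) := fun n => (D.chartMap_sh (c n)).lb_sec (hsec n)
  have hdb : ∀ n x, (b' n).1.db0 (b' n).2 κ (v n) x = (b n).1.db0 (b n).2 κ (u n) (D.sh (c n) x) :=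
    fun n x => (D.chartMap_sh (c n)).lb_db0 (b n).1 (b n).2 κ (u n) x
  have hp0 : ∀ n j, D.p0 κ (v n) j = (p n).a (c n + j) := by
    intro n j
    rw [ha, XTData.p0, XTData.p0, add_comm, ← D.prof_comp_sh]
    congr 1
    funext x
    exact D.n0_comp_sh κ (c n) (u n) x
  have hp1 : ∀ n j, D.p1 κ ((b' n).1.db0 (b' n).2 κ (v n)) j = (p n).b (c n + j) := by
    intro n j
    rw [hbb, XTData.p1, XTData.p1, add_comm, ← D.prof_comp_sh]
    congr 1
    funext x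
    rw [← D.n1_comp_sh κ (c n)]
    exact n1_congr (hdb n x)
  have hA : ∀ n j, (p n).a (c n + j) ≤ eg δ j * ρ j := by
    intro n j
    have hwp := (hw n).1 (c n + j)
    have := (h2 n j).trans (mul_le_mul_of_nonneg_left ((hw n).2 (c n) j) (eg_pos δ j).le)
    have h4 : (p n).w (c n + j) * (p n).a (c n + j) ≤ (p n).w (c n + j) * (eg δ j * ρ j) := by
      linarith
    exact le_of_mul_le_mul_left h4 hwp
  have hBd : ∀ n j, (p n).b (c n + j) ≤ ε n * (eg δ j * ρ j) := by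
    intro n j
    have hwp := (hw n).1 (c n + j)
    have h5 := mul_le_mul_of_nonneg_left ((hw n).2 (c n) j) (eg_pos δ j).le
    have := (h3 n j).trans (mul_le_mul_of_nonneg_left h5 (hε0 n))
    have h4 : (p n).w (c n + j) * (p n).b (c n + j) ≤
        (p n).w (c n + j) * (ε n * (eg δ j * ρ j)) := by
      linarith
    exact le_of_mul_le_mul_left h4 hwp
  -- subsequence of bundles
  obtain ⟨φ, hφ, q, hq, hconv⟩ := hB.cpt b' hb'
  have hεφ : Tendsto (fun n => ε (φ n)) atTop (𝓝 0) := hε.comp hφ.tendsto_atTop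
  obtain ⟨ψ, hψ, w, hwreg, hwsec, hwdb, hwconv⟩ := hNF ι κ q.1 q.2 (fun n => (b' (φ n)).1)
    (fun n => (b' (φ n)).2) (fun _ => 0) (fun n => v (φ n)) (hB.holLim q hq)
    (fun n => hB.hol _ _ (hb' _)) hconv.1 hconv.2 reg1_zero
    (fun x i => by simp [act_zero]) (fun x => db1_zero κ _ _ x)
    (fun n => hvreg _) (fun n => hvsec _)
    (fun j => ⟨eg δ j * ρ j, fun n => (hp0 _ j).le.trans (hA _ j)⟩)
    (fun j => by
      have e : ∀ n, D.p1 κ (fun x => (b' (φ n)).1.db0 (b' (φ n)).2 κ (v (φ n)) x - 0) j =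
          (p (φ n)).b (c (φ n) + j) := by
        intro n
        simp only [sub_zero]
        exact hp1 _ j
      have h6 : Tendsto (fun n => ε (φ n) * (eg δ j * ρ j)) atTop (𝓝 0) := by
        simpa using hεφ.mul_const (eg δ j * ρ j)
      refine squeeze_zero (fun n => D.prof_nonneg (n1_nonneg D κ _) j) (fun n => ?_) h6
      exact (e n).le.trans (hBd _ j))
  -- the limit vanishes
  have hw0 : ∀ x, w x = 0 := by
    refine hV q hq w hwreg hwsec hwdb ⟨1, fun j => ?_⟩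
    rw [one_mul]
    exact p0_bound_of_lim D hwreg (fun n => hvreg (φ (ψ n))) hwconv
      (fun n => (hp0 _ j).le.trans (hA _ j))
  have h7 := hwconv 0
  have h8 : ∀ n, D.p0 κ (fun x => v (φ (ψ n)) x - w x) 0 = 1 := by
    intro n
    simp only [hw0, sub_zero]
    have := hp0 (φ (ψ n)) 0
    rw [add_zero, h1] at this
    exact this
  simp only [h8] at h7
  have := tendsto_nhds_unique h7 tendsto_const_nhds
  norm_num at this

/-! ### consequences -/

open scoped Pointwise in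
theorem prof_smul {n : M → ℝ} {t : ℝ} (ht : 0 < t) (j : ℤ) :
    D.prof (fun x => t * n x) j = t * D.prof n j := by
  have : (fun x => t * n x) '' D.slab j = t • (n '' D.slab j) := by
    rw [← image_smul, image_image]
    rfl
  rw [XTData.prof, XTData.prof, this, Real.sSup_smul_of_nonneg ht.le, smul_eq_mul]

theorem p0_smul (κ : ℤ) {t : ℂ} (ht : t ≠ 0) (s : M → V) (j : ℤ) :
    D.p0 κ (fun x => t • s x) j = ‖t‖ * D.p0 κ s j := by
  simp only [XTData.p0]
  rw [← prof_smul D (norm_pos_iff.2 ht)]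
  congr 1
  funext x
  rw [n0_smul]

theorem p1_smul (κ : ℤ) {t : ℂ} (ht : t ≠ 0) (s : M → Fin 2 → V) (j : ℤ) :
    D.p1 κ (fun x => t • s x) j = ‖t‖ * D.p1 κ s j := by
  simp only [XTData.p1]
  rw [← prof_smul D (norm_pos_iff.2 ht)]
  congr 1
  funext x
  rw [n1_smul]

theorem isFam_USet (κ : ℤ) (ρ : ℤ → ℝ) (B : Set (BH M ι)) : IsFam (USet D κ ρ B) where
  w_pos := fun p hp j => hp.1.1 j
  a_nonneg := by
    rintro p ⟨-, b, hb, u, hu, hs, ha, -⟩ j
    rw [ha]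
    exact D.prof_nonneg (n0_nonneg D κ u) j
  b_nonneg := by
    rintro p ⟨-, b, hb, u, hu, hs, -, hbb⟩ j
    rw [hbb]
    exact D.prof_nonneg (n1_nonneg D κ _) j
  scale := by
    rintro p ⟨hw, b, hb, u, hu, hs, ha, hbb⟩ t ht
    have htc : (t : ℂ) ≠ 0 := by exact_mod_cast ht.ne'
    have htn : ‖(t : ℂ)‖ = t := by
      rw [Complex.norm_real, Real.norm_eq_abs, abs_of_pos ht]
    refine ⟨hw, b, hb, fun x => (t : ℂ) • u x, ?_, ?_, ?_, ?_⟩
    · exact reg0_const_smul hu _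
    · intro x
      have := hs x
      simp only [act_smul, this]
    · funext j
      simp only [ha]
      rw [p0_smul D κ htc, htn]
    · funext j
      simp only [hbb]
      have e : b.1.db0 b.2 κ (fun x => (t : ℂ) • u x) =
          (fun y => (t : ℂ) • b.1.db0 b.2 κ u y) := by
        funext x
        exact db0_const_smul hu _ x
      rw [e, p1_smul D κ htc, htn]

/-- **The uniform degree 0 estimates**, sup form, `ℓ¹` form, `ℓ¹` form over one period.
`w` runs through the weights with `w c ≤ ρ j * w (c + j)`. -/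
structure Est0 (κ : ℤ) (ρ : ℤ → ℝ) (B : Set (BH M ι)) (C : ℝ) : Prop where
  pos : 0 < C
  sup : ∀ b ∈ B, ∀ w : ℤ → ℝ, Wt ρ w → ∀ u : M → EuclideanSpace ℂ ι, Reg0 ∞ κ u → b.1.Sec u →
    (∃ A, ∀ j, w j * D.p0 κ u j ≤ A) →
    ∀ K, (∀ j, w j * D.p1 κ (b.1.db0 b.2 κ u) j ≤ K) → ∀ j, w j * D.p0 κ u j ≤ C * K
  l1 : ∀ b ∈ B, ∀ w : ℤ → ℝ, Wt ρ w → ∀ u : M → EuclideanSpace ℂ ι, Reg0 ∞ κ u → b.1.Sec u →
    Summable (fun j => w j * D.p0 κ u j) → Summable (fun j => w j * D.p1 κ (b.1.db0 b.2 κ u) j) →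
    ∑' j, w j * D.p0 κ u j ≤ C * ∑' j, w j * D.p1 κ (b.1.db0 b.2 κ u) j
  per : ∀ b ∈ B, ∀ w : ℤ → ℝ, Wt ρ w → ∀ u : M → EuclideanSpace ℂ ι, Reg0 ∞ κ u → b.1.Sec u →
    ∀ m : ℕ, 0 < m → (∀ j, w (j + m) * D.p0 κ u (j + m) = w j * D.p0 κ u j) →
    (∀ j, w (j + m) * D.p1 κ (b.1.db0 b.2 κ u) (j + m) = w j * D.p1 κ (b.1.db0 b.2 κ u) j) →
    ∑ j ∈ Finset.range m, w j * D.p0 κ u j ≤
      C * ∑ j ∈ Finset.range m, w j * D.p1 κ (b.1.db0 b.2 κ u) j

theorem exists_est0_of_not_bad {κ : ℤ} {ρ : ℤ → ℝ} {δ : ℝ} (hδ : 0 < δ) {B : Set (BH M ι)}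
    (h : ¬ Bad (USet D κ ρ B) δ) : ∃ C, Est0 D κ ρ B C := by
  have hF := isFam_USet D κ ρ B
  obtain ⟨C1, hC1, h1⟩ := unif_sup hF hδ h
  obtain ⟨C2, hC2, h2⟩ := unif_l1 hF hδ h
  obtain ⟨C3, hC3, h3⟩ := unif_per hF hδ h
  have hw0 : ∀ (w : ℤ → ℝ), Wt ρ w → ∀ (n : M → ℝ), (∀ x, 0 ≤ n x) → ∀ j, 0 ≤ w j * D.prof n j :=
    fun w hw n hn j => mul_nonneg (hw.1 j).le (D.prof_nonneg hn j)
  refine ⟨max C1 (max C2 C3), lt_of_lt_of_le hC1 (le_max_left _ _), ?_, ?_, ?_⟩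
  · intro b hb w hw u hu hs hA K hK j
    have hK0 : 0 ≤ K := (hw0 w hw _ (n1_nonneg D κ _) 0).trans (hK 0)
    obtain ⟨A, hA⟩ := hA
    have := h1 ⟨w, D.p0 κ u, D.p1 κ (b.1.db0 b.2 κ u)⟩ ⟨hw, b, hb, u, hu, hs, rfl, rfl⟩
      ⟨A, by rintro _ ⟨j, rfl⟩; exact hA j⟩ K hK j
    exact this.trans (mul_le_mul_of_nonneg_right (le_max_left _ _) hK0)
  · intro b hb w hw u hu hs hA hB
    have := h2 ⟨w, D.p0 κ u, D.p1 κ (b.1.db0 b.2 κ u)⟩ ⟨hw, b, hb, u, hu, hs, rfl, rfl⟩ hA hB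
    refine this.trans (mul_le_mul_of_nonneg_right
      ((le_max_left _ _).trans (le_max_right _ _)) ?_)
    exact tsum_nonneg (hw0 w hw _ (n1_nonneg D κ _))
  · intro b hb w hw u hu hs m hm hpa hpb
    have := h3 ⟨w, D.p0 κ u, D.p1 κ (b.1.db0 b.2 κ u)⟩ ⟨hw, b, hb, u, hu, hs, rfl, rfl⟩ m hm
      hpa hpb
    refine this.trans (mul_le_mul_of_nonneg_right
      ((le_max_right _ _).trans (le_max_right _ _)) ?_)
    exact Finset.sum_nonneg fun i _ => hw0 w hw _ (n1_nonneg D κ _) _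

/-- **T0**, abstract form -/
theorem exists_est0 {κ : ℤ} {ρ : ℤ → ℝ} {δ : ℝ} (hδ : 0 < δ) {B : ℕ → Set (BH M ι)}
    {Lim : Set (BH M ι)} (hB : BFam D B Lim) (hNF : D.NF)
    (hV : ∀ q ∈ Lim, D.Van κ q.1 q.2 (fun j => eg δ j * ρ j)) :
    ∃ n C, Est0 D κ ρ (B n) C := by
  obtain ⟨n, hn⟩ := exists_not_bad (not_badSeq D hB hNF hV)
  obtain ⟨C, hC⟩ := exists_est0_of_not_bad D hδ hn
  exact ⟨n, C, hC⟩

end Vale.Agent.P267.H359
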